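import Vale.Agent.P065.R2.H841.Sm.Defs

/-!
# P065: smoothed point sets, one moving point (helper838)
-/

set_option autoImplicit false

namespace Vale.Agent.P065.R2.H841.Sm

open Finset MeasureTheory Vale.Agent.P065

theorem measurable_orient {α : Type*} [MeasurableSpace α] {f g h : α → ℝ × ℝ}
    (hf : Measurable f) (hg : Measurable g) (hh : Measurable h) :
    Measurable fun z => orient (f z) (g z) (h z) := by
  unfold orient
  exact ((hg.fst.sub hf.fst).mul (hh.snd.sub hf.snd)).sub
    ((hg.snd.sub hf.snd).mul (hh.fst.sub hf.fst))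

theorem measurable_card {α ι : Type*} [MeasurableSpace α] [Fintype ι] {P : ι → α → Prop}
    [∀ z, DecidablePred fun l => P l z] (hP : ∀ l, MeasurableSet {z | P l z}) :
    Measurable fun z => #{l | P l z} := by
  simp only [Finset.card_filter]
  exact Finset.measurable_sum _ fun l _ =>
    Measurable.ite (hP l) measurable_const measurable_const

theorem measurableSet_dir {ι : Type} [Fintype ι] (k : ℕ) (i j : ι) :
    MeasurableSet {x : ι → ℝ × ℝ | Dir x k i j} := by
  classical
  have hm : ∀ l : ι, Measurable fun x : ι → ℝ × ℝ => orient (x i) (x j) (x l) := fun l =>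
    measurable_orient (measurable_pi_apply i) (measurable_pi_apply j) (measurable_pi_apply l)
  have h1 : Measurable fun x : ι → ℝ × ℝ => #{l | 0 < orient (x i) (x j) (x l)} :=
    measurable_card fun l => measurableSet_lt measurable_const (hm l)
  have h2 : Measurable fun x : ι → ℝ × ℝ => #{l | orient (x i) (x j) (x l) < 0} :=
    measurable_card fun l => measurableSet_lt (hm l) measurable_const
  have h3 : MeasurableSet {x : ι → ℝ × ℝ | #{l | orient (x i) (x j) (x l) < 0} + k + 2 =
      Fintype.card ι} :=
    ((h2.add_const k).add_const 2) (measurableSet_singleton _)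
  have h4 : MeasurableSet {x : ι → ℝ × ℝ | #{l | 0 < orient (x i) (x j) (x l)} = k} :=
    h1 (measurableSet_singleton _)
  exact (MeasurableSet.const (i ≠ j)).inter (h4.inter h3)

/-- the coordinate orthogonal to the direction with angle `t` -/
noncomputable def ff (t : ℝ) (z : ℝ × ℝ) : ℝ := Real.cos t * z.2 - Real.sin t * z.1

theorem orient_polar (p z : ℝ × ℝ) (r t : ℝ) :
    orient p (p + (r * Real.cos t, r * Real.sin t)) z = r * (ff t z - ff t p) := by
  unfold orient ff
  simp only [Prod.fst_add, Prod.snd_add]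
  ring

variable {ι : Type} [Fintype ι]

open Classical in
/-- the condition on the angle -/
def Gp (x : ι → ℝ × ℝ) (j : ι) (k : ℕ) (i : ι) (t : ℝ) : Prop :=
  i ≠ j ∧ #{l | l ≠ j ∧ ff t (x i) < ff t (x l)} = k ∧
    #{l | l ≠ j ∧ ff t (x l) < ff t (x i)} + k + 2 = Fintype.card ι

theorem measurable_ff (z : ℝ × ℝ) : Measurable fun t => ff t z := by
  unfold ff
  exact (Real.measurable_cos.mul_const _).sub (Real.measurable_sin.mul_const _)

theorem measurableSet_Gp (x : ι → ℝ × ℝ) (j : ι) (k : ℕ) (i : ι) :
    MeasurableSet {t | Gp x j k i t} := by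
  classical
  have h1 : Measurable fun t : ℝ => #{l | l ≠ j ∧ ff t (x i) < ff t (x l)} :=
    measurable_card fun l => (MeasurableSet.const (l ≠ j)).inter
      (measurableSet_lt (measurable_ff _) (measurable_ff _))
  have h2 : Measurable fun t : ℝ => #{l | l ≠ j ∧ ff t (x l) < ff t (x i)} :=
    measurable_card fun l => (MeasurableSet.const (l ≠ j)).inter
      (measurableSet_lt (measurable_ff _) (measurable_ff _))
  have h3 : MeasurableSet {t : ℝ | #{l | l ≠ j ∧ ff t (x l) < ff t (x i)} + k + 2 =
      Fintype.card ι} :=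
    ((h2.add_const k).add_const 2) (measurableSet_singleton _)
  have h4 : MeasurableSet {t : ℝ | #{l | l ≠ j ∧ ff t (x i) < ff t (x l)} = k} :=
    h1 (measurableSet_singleton _)
  exact (MeasurableSet.const (i ≠ j)).inter (h4.inter h3)

/-- in polar coordinates about `x i` only the angle matters -/
theorem Gp_of_dir {x : ι → ℝ × ℝ} {j : ι} {k : ℕ} {i : ι} {r t : ℝ} (hr : 0 < r) [DecidableEq ι]
    (h : Dir (Function.update x j (x i + (r * Real.cos t, r * Real.sin t))) k i j) :
    Gp x j k i t := by
  obtain ⟨hij, h1, h2⟩ := h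
  have key : ∀ l, orient (Function.update x j (x i + (r * Real.cos t, r * Real.sin t)) i)
      (Function.update x j (x i + (r * Real.cos t, r * Real.sin t)) j)
      (Function.update x j (x i + (r * Real.cos t, r * Real.sin t)) l) =
      if l = j then 0 else r * (ff t (x l) - ff t (x i)) := by
    intro l
    rw [Function.update_self, Function.update_of_ne hij]
    split_ifs with hl
    · rw [hl, Function.update_self]
      unfold orient
      ring
    · rw [Function.update_of_ne hl, orient_polar]
  refine ⟨hij, ?_, ?_⟩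
  · rw [← h1]
    congr 1
    ext l
    simp only [Finset.mem_filter, Finset.mem_univ, true_and, key]
    split_ifs with hl
    · simp [hl]
    · rw [mul_pos_iff_of_pos_left hr, sub_pos]
      exact ⟨fun h => h.2, fun h => ⟨hl, h⟩⟩
  · rw [← h2]
    congr 3
    ext l
    simp only [Finset.mem_filter, Finset.mem_univ, true_and, key]
    split_ifs with hl
    · simp [hl]
    · refine ⟨fun h => mul_neg_of_pos_of_neg hr (sub_neg.2 h.2), fun h => ⟨hl, ?_⟩⟩
      by_contra hc
      have := mul_nonneg hr.le (sub_nonneg.2 (not_lt.1 hc))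
      linarith

/-- at most one index for every angle -/
theorem Gp_unique {x : ι → ℝ × ℝ} {j : ι} {k : ℕ} {i i' : ι} {t : ℝ}
    (h : Gp x j k i t) (h' : Gp x j k i' t) : i = i' := by
  classical
  have main : ∀ i i' : ι, Gp x j k i t → Gp x j k i' t → ff t (x i) < ff t (x i') → False := by
    intro i i' h h' hlt
    obtain ⟨hij, h1, h2⟩ := h
    obtain ⟨hij', h1', h2'⟩ := h'
    have hss : (Finset.univ.filter fun l => l ≠ j ∧ ff t (x i') < ff t (x l)) ⊂
        (Finset.univ.filter fun l => l ≠ j ∧ ff t (x i) < ff t (x l)) := by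
      rw [Finset.ssubset_iff_of_subset]
      · exact ⟨i', by simp [hij', hlt], by simp⟩
      · intro l hl
        simp only [Finset.mem_filter, Finset.mem_univ, true_and] at hl ⊢
        exact ⟨hl.1, hlt.trans hl.2⟩
    have := Finset.card_lt_card hss
    have e1 : #(Finset.univ.filter fun l => l ≠ j ∧ ff t (x i') < ff t (x l)) = k := by
      rw [← h1']
    have e2 : #(Finset.univ.filter fun l => l ≠ j ∧ ff t (x i) < ff t (x l)) = k := by
      rw [← h1]
    omega
  by_contra hne
  rcases lt_trichotomy (ff t (x i)) (ff t (x i')) with hlt | heq | hlt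
  · exact main i i' h h' hlt
  · obtain ⟨hij, h1, h2⟩ := h
    obtain ⟨hij', h1', h2'⟩ := h'
    -- the two sets and `i`, `i'`, `j` are disjoint
    have hd : Disjoint (Finset.univ.filter fun l => l ≠ j ∧ ff t (x i) < ff t (x l))
        (Finset.univ.filter fun l => l ≠ j ∧ ff t (x l) < ff t (x i)) := by
      rw [Finset.disjoint_left]
      intro l hl hl'
      simp only [Finset.mem_filter, Finset.mem_univ, true_and] at hl hl'
      linarith [hl.2, hl'.2]
    have hd' : Disjoint ((Finset.univ.filter fun l => l ≠ j ∧ ff t (x i) < ff t (x l)) ∪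
        (Finset.univ.filter fun l => l ≠ j ∧ ff t (x l) < ff t (x i))) {i, i', j} := by
      rw [Finset.disjoint_left]
      intro l hl hl'
      simp only [Finset.mem_union, Finset.mem_filter, Finset.mem_univ, true_and,
        Finset.mem_insert, Finset.mem_singleton] at hl hl'
      rcases hl' with rfl | rfl | rfl
      · rcases hl with hl | hl
        · exact lt_irrefl _ hl.2
        · exact lt_irrefl _ hl.2
      · rcases hl with hl | hl
        · linarith [hl.2]
        · linarith [hl.2]
      · rcases hl with hl | hl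
        · exact hl.1 rfl
        · exact hl.1 rfl
    have h3 : #({i, i', j} : Finset ι) = 3 := by
      rw [Finset.card_insert_of_notMem, Finset.card_insert_of_notMem, Finset.card_singleton]
      · simpa using hij'
      · simp [hne, hij]
    have h4 := Finset.card_le_univ (((Finset.univ.filter fun l => l ≠ j ∧
        ff t (x i) < ff t (x l)) ∪
        (Finset.univ.filter fun l => l ≠ j ∧ ff t (x l) < ff t (x i))) ∪ {i, i', j})
    rw [Finset.card_union_of_disjoint hd', Finset.card_union_of_disjoint hd, h3] at h4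
    have e1 : #(Finset.univ.filter fun l => l ≠ j ∧ ff t (x i) < ff t (x l)) = k := by
      rw [← h1]
    have e2 : #(Finset.univ.filter fun l => l ≠ j ∧ ff t (x l) < ff t (x i)) + k + 2 =
        Fintype.card ι := by
      rw [← h2]
    omega
  · exact main i' i h' h hlt

theorem measurableSet_disc (a : ℝ × ℝ) (ρ : ℝ) : MeasurableSet (disc a ρ) := by
  unfold disc
  exact measurableSet_le (((measurable_fst.sub_const _).pow_const 2).add
    ((measurable_snd.sub_const _).pow_const 2)) measurable_const

/-- the part of a ray in a disc -/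
theorem volume_ray (p a : ℝ × ℝ) (t : ℝ) {ρ : ℝ} (hρ : 0 ≤ ρ) :
    volume {r : ℝ | p + (r * Real.cos t, r * Real.sin t) ∈ disc a ρ} ≤ ENNReal.ofReal (2 * ρ) := by
  set c : ℝ := Real.cos t * (a.1 - p.1) + Real.sin t * (a.2 - p.2) with hc
  have hsub : {r : ℝ | p + (r * Real.cos t, r * Real.sin t) ∈ disc a ρ} ⊆
      Set.Icc (c - ρ) (c + ρ) := by
    intro r hr
    have h1 : (p.1 + r * Real.cos t - a.1) ^ 2 + (p.2 + r * Real.sin t - a.2) ^ 2 ≤ ρ ^ 2 := hr
    have h2 : (p.1 + r * Real.cos t - a.1) ^ 2 + (p.2 + r * Real.sin t - a.2) ^ 2 =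
        (r - c) ^ 2 + (Real.sin t * (a.1 - p.1) - Real.cos t * (a.2 - p.2)) ^ 2 +
        (r ^ 2 - (a.1 - p.1) ^ 2 - (a.2 - p.2) ^ 2) *
          (Real.sin t ^ 2 + Real.cos t ^ 2 - 1) := by
      rw [hc]; ring
    rw [Real.sin_sq_add_cos_sq, sub_self, mul_zero, add_zero] at h2
    have h3 : (r - c) ^ 2 ≤ ρ ^ 2 := by
      have := sq_nonneg (Real.sin t * (a.1 - p.1) - Real.cos t * (a.2 - p.2))
      linarith
    have h4 := abs_le_of_sq_le_sq h3 hρ
    have h5 := abs_le.1 h4
    constructor <;> linarith [h5.1, h5.2]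
  refine (measure_mono hsub).trans ?_
  rw [Real.volume_Icc]
  exact ENNReal.ofReal_le_ofReal (by linarith)

/-- the bound for one index -/
theorem one_index [DecidableEq ι] (x : ι → ℝ × ℝ) (i j : ι) (k : ℕ) {ρ R : ℝ} (hρ : 0 ≤ ρ)
    (hR : 0 ≤ R) (a : ℝ × ℝ)
    (hdist : i ≠ j → ∀ y ∈ disc a ρ, (y.1 - (x i).1) ^ 2 + (y.2 - (x i).2) ^ 2 ≤ R ^ 2) :
    volume ({y | Dir (Function.update x j y) k i j} ∩ disc a ρ) ≤
      ∫⁻ t in Set.Ioo (-Real.pi) Real.pi,
        {t | Gp x j k i t}.indicator (fun _ => ENNReal.ofReal (R * (2 * ρ))) t := by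
  by_cases hij : i = j
  · have h0 : {y | Dir (Function.update x j y) k i j} = ∅ := by
      ext y
      simp only [Set.mem_ofPred_eq, Set.mem_empty_iff_false, iff_false]
      exact fun h => h.1 hij
    rw [h0, Set.empty_inter, measure_empty]
    exact zero_le
  have hS : MeasurableSet {y : ℝ × ℝ | Dir (Function.update x j y) k i j} :=
    measurable_update x (measurableSet_dir k i j)
  have hSD := hS.inter (measurableSet_disc a ρ)
  set S : Set (ℝ × ℝ) := {y | Dir (Function.update x j y) k i j} ∩ disc a ρ with hSdef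
  have hGm : MeasurableSet {t | Gp x j k i t} := measurableSet_Gp x j k i
  have e1 : volume S = ∫⁻ p : ℝ × ℝ, S.indicator 1 (x i + p) := by
    rw [lintegral_add_left_eq_self (fun p => S.indicator (1 : ℝ × ℝ → ENNReal) p) (x i),
      lintegral_indicator_one hSD]
  rw [e1, ← lintegral_comp_polarCoord_symm]
  -- the pointwise bound
  set F : ℝ × ℝ → ENNReal := fun p =>
    {t | Gp x j k i t}.indicator (fun _ => ENNReal.ofReal R) p.2 *
      {q : ℝ × ℝ | x i + (q.1 * Real.cos q.2, q.1 * Real.sin q.2) ∈ disc a ρ}.indicator 1 p with hF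
  have hDm : MeasurableSet
      {q : ℝ × ℝ | x i + (q.1 * Real.cos q.2, q.1 * Real.sin q.2) ∈ disc a ρ} := by
    refine (measurableSet_disc a ρ).preimage ?_
    exact measurable_const.add ((measurable_fst.mul (Real.measurable_cos.comp measurable_snd)).prodMk
      (measurable_fst.mul (Real.measurable_sin.comp measurable_snd)))
  have hFm : Measurable F := by
    refine Measurable.mul ?_ ?_
    · exact (Measurable.indicator measurable_const hGm).comp measurable_snd
    · exact Measurable.indicator measurable_const hDm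
  have hle : ∀ p ∈ polarCoord.target,
      ENNReal.ofReal p.1 • S.indicator (1 : ℝ × ℝ → ENNReal) (x i + polarCoord.symm p) ≤ F p := by
    intro p hp
    rw [polarCoord_target] at hp
    have hp1 : 0 < p.1 := hp.1
    by_cases hpS : x i + polarCoord.symm p ∈ S
    · have hps : polarCoord.symm p = (p.1 * Real.cos p.2, p.1 * Real.sin p.2) :=
        polarCoord_symm_apply p
      rw [hps] at hpS ⊢
      have hG : Gp x j k i p.2 := Gp_of_dir hp1 hpS.1
      have hr : p.1 ≤ R := by
        have h1 := hdist hij _ hpS.2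
        have h2 : p.1 ^ 2 ≤ R ^ 2 := by
          have e2 : (((x i + (p.1 * Real.cos p.2, p.1 * Real.sin p.2)).1 - (x i).1) ^ 2 +
              ((x i + (p.1 * Real.cos p.2, p.1 * Real.sin p.2)).2 - (x i).2) ^ 2) =
              p.1 ^ 2 * (Real.sin p.2 ^ 2 + Real.cos p.2 ^ 2) := by
            simp only [Prod.fst_add, Prod.snd_add]
            ring
          rw [e2, Real.sin_sq_add_cos_sq, mul_one] at h1
          exact h1
        exact le_of_sq_le_sq h2 hR
      simp only [hF]
      rw [Set.indicator_of_mem hpS, Set.indicator_of_mem (show p.2 ∈ {t | Gp x j k i t} from hG),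
        Set.indicator_of_mem (show p ∈ {q : ℝ × ℝ |
          x i + (q.1 * Real.cos q.2, q.1 * Real.sin q.2) ∈ disc a ρ} from hpS.2)]
      simp only [Pi.one_apply, smul_eq_mul, mul_one]
      exact ENNReal.ofReal_le_ofReal hr
    · rw [Set.indicator_of_notMem hpS, smul_zero]
      exact zero_le
  refine (setLIntegral_mono hFm hle).trans ?_
  rw [polarCoord_target, Measure.volume_eq_prod, ← Measure.prod_restrict,
    lintegral_prod_symm' _ hFm]
  refine lintegral_mono fun t => ?_
  simp only [hF]
  by_cases hG : Gp x j k i t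
  · rw [Set.indicator_of_mem (show t ∈ {t | Gp x j k i t} from hG),
      Set.indicator_of_mem (show t ∈ {t | Gp x j k i t} from hG)]
    have hm2 : MeasurableSet {r : ℝ | x i + (r * Real.cos t, r * Real.sin t) ∈ disc a ρ} :=
      hDm.preimage (measurable_id.prodMk measurable_const)
    have e2 : ∀ r : ℝ, {q : ℝ × ℝ | x i + (q.1 * Real.cos q.2, q.1 * Real.sin q.2) ∈
        disc a ρ}.indicator (1 : ℝ × ℝ → ENNReal) (r, t) =
        {r : ℝ | x i + (r * Real.cos t, r * Real.sin t) ∈ disc a ρ}.indicator 1 r := fun r => rfl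
    simp only [e2]
    rw [lintegral_const_mul' _ _ ENNReal.ofReal_ne_top, lintegral_indicator_one hm2,
      ENNReal.ofReal_mul hR]
    gcongr
    exact (Measure.restrict_apply_le _ _).trans (volume_ray (x i) a t hρ)
  · rw [Set.indicator_of_notMem (show t ∉ {t | Gp x j k i t} from hG)]
    simp

/-- **One moving point.** -/
theorem core {ι : Type} [Fintype ι] [DecidableEq ι] (x : ι → ℝ × ℝ) (j : ι) (k : ℕ) (μ : Measure (ℝ × ℝ))
    (L ρ R : ℝ) (hL : 0 ≤ L) (hρ : 0 ≤ ρ) (hR : 0 ≤ R) (a : ℝ × ℝ)
    (hμ : μ ≤ ENNReal.ofReal L • volume) (hsupp : μ (disc a ρ)ᶜ = 0)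
    (hdist : ∀ i, i ≠ j → ∀ y ∈ disc a ρ,
      (y.1 - (x i).1) ^ 2 + (y.2 - (x i).2) ^ 2 ≤ R ^ 2) :
    ∑ i, μ {y | Dir (Function.update x j y) k i j} ≤
      ENNReal.ofReal (4 * Real.pi * R * ρ * L) := by
  have h1 : ∀ i, μ {y | Dir (Function.update x j y) k i j} ≤ ENNReal.ofReal L *
      ∫⁻ t in Set.Ioo (-Real.pi) Real.pi,
        {t | Gp x j k i t}.indicator (fun _ => ENNReal.ofReal (R * (2 * ρ))) t := by
    intro i
    calc μ {y | Dir (Function.update x j y) k i j}
        ≤ μ ({y | Dir (Function.update x j y) k i j} ∩ disc a ρ) + μ (disc a ρ)ᶜ := by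
          refine (measure_mono ?_).trans (measure_union_le _ _)
          intro y hy
          by_cases hyD : y ∈ disc a ρ
          · exact Or.inl ⟨hy, hyD⟩
          · exact Or.inr hyD
      _ = μ ({y | Dir (Function.update x j y) k i j} ∩ disc a ρ) := by rw [hsupp, add_zero]
      _ ≤ (ENNReal.ofReal L • volume) ({y | Dir (Function.update x j y) k i j} ∩ disc a ρ) :=
          hμ _
      _ = ENNReal.ofReal L * volume ({y | Dir (Function.update x j y) k i j} ∩ disc a ρ) := rfl
      _ ≤ _ := by
          gcongr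
          exact one_index x i j k hρ hR a fun hij => hdist i hij
  refine (Finset.sum_le_sum fun i _ => h1 i).trans ?_
  rw [← Finset.mul_sum, ← lintegral_finsetSum _ fun i _ =>
    Measurable.indicator measurable_const (measurableSet_Gp x j k i)]
  have h2 : ∀ t : ℝ, ∑ i, {t | Gp x j k i t}.indicator
      (fun _ => ENNReal.ofReal (R * (2 * ρ))) t ≤ ENNReal.ofReal (R * (2 * ρ)) := by
    intro t
    by_cases hex : ∃ i, Gp x j k i t
    · obtain ⟨i, hi⟩ := hex
      rw [Finset.sum_eq_single i]
      · rw [Set.indicator_of_mem (show t ∈ {t | Gp x j k i t} from hi)]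
      · intro i' _ hne
        exact Set.indicator_of_notMem
          (show t ∉ {t | Gp x j k i' t} from fun h => hne (Gp_unique h hi)) _
      · exact fun h => absurd (Finset.mem_univ _) h
    · push Not at hex
      rw [Finset.sum_eq_zero]
      · exact zero_le
      · exact fun i _ => Set.indicator_of_notMem (show t ∉ {t | Gp x j k i t} from hex i) _
  calc ENNReal.ofReal L * ∫⁻ t in Set.Ioo (-Real.pi) Real.pi, ∑ i, {t | Gp x j k i t}.indicator
        (fun _ => ENNReal.ofReal (R * (2 * ρ))) t
      ≤ ENNReal.ofReal L * ∫⁻ _ in Set.Ioo (-Real.pi) Real.pi, ENNReal.ofReal (R * (2 * ρ)) := by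
        gcongr with t
        exact h2 t
    _ = ENNReal.ofReal (4 * Real.pi * R * ρ * L) := by
        rw [lintegral_const, Measure.restrict_apply MeasurableSet.univ, Set.univ_inter,
          Real.volume_Ioo, ← ENNReal.ofReal_mul (by positivity), ← ENNReal.ofReal_mul hL]
        congr 1
        ring

end Vale.Agent.P065.R2.H841.Sm
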