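import Vale.Agent.P065.R2.H841.Sm.Defs
import Vale.Agent.P065.R2.H841.Pad
import Vale.Agent.P065.U.H792.Trans

/-!
# P065: halving lines and `k`-sets of a family of points, counted by directed pairs (helper257)
-/

set_option autoImplicit false

namespace Vale.Agent.P065.R2.H841.Sm

open Finset Vale.Agent.P065

open Classical in
/-- counting through an injective family -/
theorem card_filter_image_fin {n : ℕ} (x : Fin n → ℝ × ℝ) (hx : Function.Injective x)
    (p : ℝ × ℝ → Prop) : #{c ∈ univ.image x | p c} = #{l : Fin n | p (x l)} := by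
  rw [Finset.filter_image, Finset.card_image_of_injective _ hx]

open Classical in
/-- halving pairs give two directed pairs each -/
theorem two_halving_le {n : ℕ} (x : Fin n → ℝ × ℝ) (hx : Function.Injective x) :
    2 * halvingNumber (univ.image x) ≤ #{p : Fin n × Fin n | Dir x ((n - 2) / 2) p.1 p.2} := by
  have hcard : (univ.image x).card = n := by
    rw [Finset.card_image_of_injective _ hx, Finset.card_univ, Fintype.card_fin]
  set S : Finset (Finset (ℝ × ℝ)) :=
    {e ∈ (univ.image x).powersetCard 2 | ∃ a b, e = {a, b} ∧ IsHalving (univ.image x) a b} with hS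
  have hSn : halvingNumber (univ.image x) = #S := by
    unfold halvingNumber
    rw [hS]
  set T : Finset (Fin n × Fin n) := {p : Fin n × Fin n | Dir x ((n - 2) / 2) p.1 p.2} with hT
  have hdir : ∀ i j : Fin n, IsHalving (univ.image x) (x i) (x j) → (i, j) ∈ T := by
    rintro i j ⟨h1, h2, h3⟩
    rw [hT, mem_filter]
    refine ⟨mem_univ _, fun h => h1 (congrArg x h), ?_, ?_⟩
    · have e1 := card_filter_image_fin x hx (fun c => 0 < orient (x i) (x j) c)
      rw [hcard] at h2
      have e2 : #{l : Fin n | 0 < orient (x i) (x j) (x l)} =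
          {c ∈ univ.image x | 0 < orient (x i) (x j) c}.card := by
        rw [← e1]
      simp only at e2 ⊢
      omega
    · have e1 := card_filter_image_fin x hx (fun c => orient (x i) (x j) c < 0)
      rw [hcard] at h3
      have e2 : #{l : Fin n | orient (x i) (x j) (x l) < 0} =
          {c ∈ univ.image x | orient (x i) (x j) c < 0}.card := by
        rw [← e1]
      rw [Fintype.card_fin]
      simp only at e2 ⊢
      omega
  have key : 2 * #S ≤ #{p ∈ T | ({x p.1, x p.2} : Finset (ℝ × ℝ)) ∈ S} := by
    apply Finset.mul_card_image_le_card_of_maps_to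
      (f := fun p : Fin n × Fin n => ({x p.1, x p.2} : Finset (ℝ × ℝ)))
    · intro p hp
      exact (mem_filter.1 hp).2
    · intro e he
      obtain ⟨h1, a, b, h2, h3⟩ := mem_filter.1 he
      have hsub := (mem_powersetCard.1 h1).1
      have ha : a ∈ univ.image x := hsub (by rw [h2]; simp)
      have hb : b ∈ univ.image x := hsub (by rw [h2]; simp)
      obtain ⟨i, -, rfl⟩ := mem_image.1 ha
      obtain ⟨j, -, rfl⟩ := mem_image.1 hb
      have hij : i ≠ j := fun h => h3.1 (by rw [h])
      have hne : (i, j) ≠ (j, i) := fun h => hij (Prod.mk.inj h).1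
      have h4 := hdir i j h3
      have h5 := hdir j i (U.H792.Trans.isHalving_swap h3)
      rw [← card_pair hne]
      apply card_le_card
      intro p hp
      rw [mem_insert, mem_singleton] at hp
      rcases hp with rfl | rfl
      · refine mem_filter.2 ⟨mem_filter.2 ⟨h4, ?_⟩, ?_⟩
        · simp only
          rw [← h2]
          exact he
        · simp only
          rw [h2]
      · refine mem_filter.2 ⟨mem_filter.2 ⟨h5, ?_⟩, ?_⟩
        · simp only
          rw [Finset.pair_comm, ← h2]
          exact he
        · simp only
          rw [Finset.pair_comm, h2]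
  rw [hSn]
  exact key.trans (card_le_card (filter_subset _ _))

open Classical in
/-- `k`-sets are counted by directed pairs -/
theorem kSet_le {n : ℕ} (x : Fin n → ℝ × ℝ) (hx : Function.Injective x)
    (hg : UB.Good (univ.image x)) {k : ℕ} (hk : 1 ≤ k) (hkn : k + 1 ≤ n) :
    kSetNumber (univ.image x) k ≤ #{p : Fin n × Fin n | Dir x (k - 1) p.1 p.2} + 2 := by
  have hcard : (univ.image x).card = n := by
    rw [Finset.card_image_of_injective _ hx, Finset.card_univ, Fintype.card_fin]
  have h0 := U.H792.Trans.kSetNumber_le hg (k := k - 1) (by rw [hcard]; omega)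
  rw [show k - 1 + 1 = k by omega, hcard] at h0
  set T : Finset (Fin n × Fin n) := {p : Fin n × Fin n | Dir x (k - 1) p.1 p.2} with hT
  -- the two kinds of edges
  have e1 : UB.Ed (univ.image x) (k - 1) ⊆
      ({p ∈ T | (x p.2).1 < (x p.1).1} : Finset (Fin n × Fin n)).image
        (fun p => (x p.2, x p.1)) := by
    intro e he
    have habove := R2.H841.card_above hg he
    obtain ⟨h1, h2, h3, h4⟩ := UB.mem_Ed.1 he
    obtain ⟨p, q⟩ := e
    simp only at h1 h2 h3 h4 habove
    obtain ⟨i, -, rfl⟩ := mem_image.1 h1
    obtain ⟨j, -, rfl⟩ := mem_image.1 h2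
    have hpos : 0 < (x j).1 - (x i).1 := by linarith
    have hor : ∀ c, orient (x j) (x i) c =
        -(((x j).1 - (x i).1) * (UB.ht (UB.sl (x i) (x j)) c -
          UB.ht (UB.sl (x i) (x j)) (x i))) := by
      intro c
      rw [U.H792.Trans.orient_swap (x i) (x j) c, U.H792.Trans.orient_eq h3.ne c]
    refine mem_image.2 ⟨(j, i), mem_filter.2 ⟨?_, h3⟩, rfl⟩
    rw [hT, mem_filter]
    refine ⟨mem_univ _, fun h => ?_, ?_, ?_⟩
    · simp only at h
      rw [h] at h3
      exact lt_irrefl _ h3
    · unfold UB.g0 at h4
      have f1 := card_filter_image_fin x hx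
        (fun c => UB.ht (UB.sl (x i) (x j)) c < UB.ht (UB.sl (x i) (x j)) (x i))
      have f2 : univ.filter (fun l : Fin n => 0 < orient (x j) (x i) (x l)) =
          univ.filter (fun l : Fin n => UB.ht (UB.sl (x i) (x j)) (x l) < UB.ht (UB.sl (x i) (x j)) (x i)) := by
        apply filter_congr
        intro l _
        rw [hor]
        constructor
        · intro h5
          by_contra h6
          have : 0 ≤ ((x j).1 - (x i).1) * (UB.ht (UB.sl (x i) (x j)) (x l) -
              UB.ht (UB.sl (x i) (x j)) (x i)) := mul_nonneg hpos.le (by linarith)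
          linarith
        · intro h5
          have : ((x j).1 - (x i).1) * (UB.ht (UB.sl (x i) (x j)) (x l) -
              UB.ht (UB.sl (x i) (x j)) (x i)) < 0 := mul_neg_of_pos_of_neg hpos (by linarith)
          linarith
      simp only
      rw [f2, ← f1]
      exact h4
    · have f1 := card_filter_image_fin x hx
        (fun c => UB.ht (UB.sl (x i) (x j)) (x i) < UB.ht (UB.sl (x i) (x j)) c)
      have f2 : univ.filter (fun l : Fin n => orient (x j) (x i) (x l) < 0) =
          univ.filter (fun l : Fin n => UB.ht (UB.sl (x i) (x j)) (x i) < UB.ht (UB.sl (x i) (x j)) (x l)) := by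
        apply filter_congr
        intro l _
        rw [hor]
        constructor
        · intro h5
          by_contra h6
          have : ((x j).1 - (x i).1) * (UB.ht (UB.sl (x i) (x j)) (x l) -
              UB.ht (UB.sl (x i) (x j)) (x i)) ≤ 0 :=
            mul_nonpos_of_nonneg_of_nonpos hpos.le (by linarith)
          linarith
        · intro h5
          have : 0 < ((x j).1 - (x i).1) * (UB.ht (UB.sl (x i) (x j)) (x l) -
              UB.ht (UB.sl (x i) (x j)) (x i)) := mul_pos hpos (by linarith)
          linarith
      have f3 : #{l : Fin n | UB.ht (UB.sl (x i) (x j)) (x i) <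
          UB.ht (UB.sl (x i) (x j)) (x l)} = n - (k - 1) - 2 := by
        rw [← f1]
        rw [hcard] at habove
        have f4 : #{c ∈ univ.image x | UB.ht (UB.sl (x i) (x j)) (x i) <
          UB.ht (UB.sl (x i) (x j)) c} = n - (k - 1) - 2 := by omega
        exact f4
      simp only
      rw [f2, f3, Fintype.card_fin]
      omega
  have e2 : UB.Ed (univ.image x) (n - (k - 1) - 2) ⊆
      ({p ∈ T | (x p.1).1 < (x p.2).1} : Finset (Fin n × Fin n)).image
        (fun p => (x p.1, x p.2)) := by
    intro e he
    have habove := R2.H841.card_above hg he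
    obtain ⟨h1, h2, h3, h4⟩ := UB.mem_Ed.1 he
    obtain ⟨p, q⟩ := e
    simp only at h1 h2 h3 h4 habove
    obtain ⟨i, -, rfl⟩ := mem_image.1 h1
    obtain ⟨j, -, rfl⟩ := mem_image.1 h2
    have hpos : 0 < (x j).1 - (x i).1 := by linarith
    have hor : ∀ c, orient (x i) (x j) c =
        ((x j).1 - (x i).1) * (UB.ht (UB.sl (x i) (x j)) c -
          UB.ht (UB.sl (x i) (x j)) (x i)) := by
      intro c
      rw [U.H792.Trans.orient_eq h3.ne c]
    refine mem_image.2 ⟨(i, j), mem_filter.2 ⟨?_, h3⟩, rfl⟩
    rw [hT, mem_filter]
    refine ⟨mem_univ _, fun h => ?_, ?_, ?_⟩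
    · simp only at h
      rw [h] at h3
      exact lt_irrefl _ h3
    · have f1 := card_filter_image_fin x hx
        (fun c => UB.ht (UB.sl (x i) (x j)) (x i) < UB.ht (UB.sl (x i) (x j)) c)
      have f2 : univ.filter (fun l : Fin n => 0 < orient (x i) (x j) (x l)) =
          univ.filter (fun l : Fin n => UB.ht (UB.sl (x i) (x j)) (x i) < UB.ht (UB.sl (x i) (x j)) (x l)) := by
        apply filter_congr
        intro l _
        rw [hor]
        constructor
        · intro h5
          by_contra h6
          have : ((x j).1 - (x i).1) * (UB.ht (UB.sl (x i) (x j)) (x l) -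
              UB.ht (UB.sl (x i) (x j)) (x i)) ≤ 0 :=
            mul_nonpos_of_nonneg_of_nonpos hpos.le (by linarith)
          linarith
        · intro h5
          exact mul_pos hpos (by linarith)
      have f3 : #{l : Fin n | UB.ht (UB.sl (x i) (x j)) (x i) <
          UB.ht (UB.sl (x i) (x j)) (x l)} = k - 1 := by
        rw [← f1]
        rw [hcard] at habove
        have f4 : #{c ∈ univ.image x | UB.ht (UB.sl (x i) (x j)) (x i) <
          UB.ht (UB.sl (x i) (x j)) c} = k - 1 := by omega
        exact f4
      simp only
      rw [f2, f3]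
    · unfold UB.g0 at h4
      have f1 := card_filter_image_fin x hx
        (fun c => UB.ht (UB.sl (x i) (x j)) c < UB.ht (UB.sl (x i) (x j)) (x i))
      have f2 : univ.filter (fun l : Fin n => orient (x i) (x j) (x l) < 0) =
          univ.filter (fun l : Fin n => UB.ht (UB.sl (x i) (x j)) (x l) < UB.ht (UB.sl (x i) (x j)) (x i)) := by
        apply filter_congr
        intro l _
        rw [hor]
        constructor
        · intro h5
          by_contra h6
          have : 0 ≤ ((x j).1 - (x i).1) * (UB.ht (UB.sl (x i) (x j)) (x l) -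
              UB.ht (UB.sl (x i) (x j)) (x i)) := mul_nonneg hpos.le (by linarith)
          linarith
        · intro h5
          exact mul_neg_of_pos_of_neg hpos (by linarith)
      have f3 : #{l : Fin n | UB.ht (UB.sl (x i) (x j)) (x l) <
          UB.ht (UB.sl (x i) (x j)) (x i)} = n - (k - 1) - 2 := by
        rw [← f1]
        exact h4
      simp only
      rw [f2, f3, Fintype.card_fin]
      omega
  have c1 := (card_le_card e1).trans card_image_le
  have c2 := (card_le_card e2).trans card_image_le
  have c3 : #{p ∈ T | (x p.2).1 < (x p.1).1} + #{p ∈ T | (x p.1).1 < (x p.2).1} ≤ #T := by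
    rw [← card_union_of_disjoint]
    · apply card_le_card
      intro p hp
      rcases mem_union.1 hp with h | h
      · exact (mem_filter.1 h).1
      · exact (mem_filter.1 h).1
    · rw [disjoint_left]
      intro p hp hp'
      have a1 := (mem_filter.1 hp).2
      have a2 := (mem_filter.1 hp').2
      exact lt_asymm a1 a2
  omega

end Vale.Agent.P065.R2.H841.Sm
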