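import Mathlib
import Vale.Agent.P065.PointSet
import Vale.Agent.P065.KSetDefs

/-!
# P065: smoothed point sets, definitions (helper841)
-/

set_option autoImplicit false

namespace Vale.Agent.P065.R2.H841.Sm

open Finset MeasureTheory Vale.Agent.P065

/-- the closed disc of radius `ρ` about `a` (Euclidean) -/
def disc (a : ℝ × ℝ) (ρ : ℝ) : Set (ℝ × ℝ) := {y | (y.1 - a.1) ^ 2 + (y.2 - a.2) ^ 2 ≤ ρ ^ 2}

open Classical in
/-- the directed line from `x i` through `x j` has exactly `k` of the points strictly on its left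
and exactly `card - 2 - k` strictly on its right -/
def Dir {ι : Type} [Fintype ι] (x : ι → ℝ × ℝ) (k : ℕ) (i j : ι) : Prop :=
  i ≠ j ∧ #{l | 0 < orient (x i) (x j) (x l)} = k ∧
    #{l | orient (x i) (x j) (x l) < 0} + k + 2 = Fintype.card ι

end Vale.Agent.P065.R2.H841.Sm
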