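import Vale.Agent.P065.R2.H841.Sm.Core

/-!
# P065: smoothed point sets, integration over the product measure (helper841)
-/

set_option autoImplicit false

namespace Vale.Agent.P065.R2.H841.Sm

open Finset MeasureTheory Vale.Agent.P065
open scoped ENNReal

/-- a bound for all one-coordinate integrals is a bound for the integral -/
theorem lintegral_pi_le {n : ℕ} (μ : Fin n → Measure (ℝ × ℝ)) [∀ i, IsProbabilityMeasure (μ i)]
    (f : (Fin n → ℝ × ℝ) → ℝ≥0∞) (hf : Measurable f) (j : Fin n) (c : ℝ≥0∞)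
    (h : ∀ x, ∫⁻ y, f (Function.update x j y) ∂μ j ≤ c) :
    ∫⁻ x, f x ∂(Measure.pi μ) ≤ c := by
  rw [lintegral_eq_lmarginal_univ (fun _ => 0), lmarginal_erase' (μ := μ) f hf (Finset.mem_univ j)]
  have h1 : (∫⋯∫⁻_(Finset.univ.erase j), (fun x => ∫⁻ y, f (Function.update x j y) ∂μ j) ∂μ) ≤
      ∫⋯∫⁻_(Finset.univ.erase j), (fun _ => c) ∂μ := lmarginal_mono (fun x => h x)
  refine (h1 (fun _ => 0)).trans (le_of_eq ?_)
  simp [lmarginal]

open Classical in
/-- expected number of directed `k`-edges -/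
theorem expect_dir {n : ℕ} (μ : Fin n → Measure (ℝ × ℝ)) [∀ i, IsProbabilityMeasure (μ i)]
    (L ρ R : ℝ) (hL : 0 ≤ L) (hρ : 0 ≤ ρ) (hR : 0 ≤ R) (a : Fin n → ℝ × ℝ)
    (hμ : ∀ i, μ i ≤ ENNReal.ofReal L • volume) (hsupp : ∀ i, μ i (disc (a i) ρ)ᶜ = 0)
    (hdist : ∀ i j, ∀ y ∈ disc (a i) ρ, ∀ z ∈ disc (a j) ρ,
      (z.1 - y.1) ^ 2 + (z.2 - y.2) ^ 2 ≤ R ^ 2) (k : ℕ) :
    ∫⁻ x, (#{p : Fin n × Fin n | Dir x k p.1 p.2} : ℝ≥0∞) ∂(Measure.pi μ) ≤
      n * ENNReal.ofReal (4 * Real.pi * R * ρ * L) := by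
  have e1 : ∀ x : Fin n → ℝ × ℝ, (#{p : Fin n × Fin n | Dir x k p.1 p.2} : ℝ≥0∞) =
      ∑ j, ∑ i, Set.indicator {x : Fin n → ℝ × ℝ | Dir x k i j} 1 x := by
    intro x
    rw [Finset.card_filter, Nat.cast_sum, Fintype.sum_prod_type_right]
    refine Finset.sum_congr rfl fun j _ => Finset.sum_congr rfl fun i _ => ?_
    simp only [Set.indicator, Set.mem_ofPred_eq, Pi.one_apply]
    split_ifs <;> simp
  have hm : ∀ i j, Measurable (Set.indicator {x : Fin n → ℝ × ℝ | Dir x k i j}
      (1 : (Fin n → ℝ × ℝ) → ℝ≥0∞)) := fun i j => measurable_one.indicator (measurableSet_dir k i j)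
  simp_rw [e1]
  rw [lintegral_finsetSum _ (fun j _ => Finset.measurable_sum _ (fun i _ => hm i j))]
  have e2 : ∀ j, ∫⁻ x, ∑ i, Set.indicator {x : Fin n → ℝ × ℝ | Dir x k i j} 1 x ∂(Measure.pi μ) ≤
      ENNReal.ofReal (4 * Real.pi * R * ρ * L) := by
    intro j
    have hdm : ∀ i, MeasurableSet (disc (a i) ρ) := by
      intro i
      unfold disc
      exact measurableSet_le (by fun_prop) (by fun_prop)
    set S : Set (Fin n → ℝ × ℝ) := {x | ∀ i, i ≠ j → x i ∈ disc (a i) ρ} with hS
    have hSm : MeasurableSet S := by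
      have : S = ⋂ i, ⋂ (_ : i ≠ j), (fun x : Fin n → ℝ × ℝ => x i) ⁻¹' disc (a i) ρ := by
        ext x
        simp [hS]
      rw [this]
      exact MeasurableSet.iInter fun i => MeasurableSet.iInter fun _ =>
        (measurable_pi_apply i) (hdm i)
    have hae : ∀ᵐ x ∂(Measure.pi μ), x ∈ S := by
      have : ∀ i, ∀ᵐ x ∂(Measure.pi μ), x i ∈ disc (a i) ρ := by
        intro i
        have h1 : ∀ᵐ y ∂(μ i), y ∈ disc (a i) ρ := hsupp i
        exact (measurePreserving_eval μ i).quasiMeasurePreserving.ae h1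
      filter_upwards [ae_all_iff.2 this] with x hx i _ using hx i
    have e3 : ∫⁻ x, ∑ i, Set.indicator {x : Fin n → ℝ × ℝ | Dir x k i j} 1 x ∂(Measure.pi μ) =
        ∫⁻ x, S.indicator (fun x => ∑ i, Set.indicator {x : Fin n → ℝ × ℝ | Dir x k i j} 1 x) x
          ∂(Measure.pi μ) := by
      apply lintegral_congr_ae
      filter_upwards [hae] with x hx
      rw [Set.indicator_of_mem hx]
    rw [e3]
    apply lintegral_pi_le μ _ _ j
    · intro x
      by_cases hx : ∀ i, i ≠ j → x i ∈ disc (a i) ρ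
      · have e4 : ∀ y, S.indicator (fun x => ∑ i, Set.indicator
            {x : Fin n → ℝ × ℝ | Dir x k i j} (1 : (Fin n → ℝ × ℝ) → ℝ≥0∞) x)
            (Function.update x j y) =
            ∑ i, Set.indicator {y | Dir (Function.update x j y) k i j} 1 y := by
          intro y
          rw [Set.indicator_of_mem]
          · refine Finset.sum_congr rfl fun i _ => ?_
            simp only [Set.indicator, Set.mem_ofPred_eq, Pi.one_apply]
          · intro i hi
            rw [Function.update_of_ne hi]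
            exact hx i hi
        simp_rw [e4]
        have hm2 : ∀ i, MeasurableSet {y | Dir (Function.update x j y) k i j} := fun i =>
          (measurable_update x) (measurableSet_dir k i j)
        rw [lintegral_finsetSum _ (fun i _ => measurable_one.indicator (hm2 i))]
        simp_rw [fun i => lintegral_indicator_one (μ := μ j) (hm2 i)]
        exact core x j k (μ j) L ρ R hL hρ hR (a j) (hμ j) (hsupp j)
          (fun i hi y hy => hdist i j (x i) (hx i hi) y hy)
      · have e4 : ∀ y, S.indicator (fun x => ∑ i, Set.indicator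
            {x : Fin n → ℝ × ℝ | Dir x k i j} (1 : (Fin n → ℝ × ℝ) → ℝ≥0∞) x)
            (Function.update x j y) = 0 := by
          intro y
          apply Set.indicator_of_notMem
          intro hy
          apply hx
          intro i hi
          have := hy i hi
          rwa [Function.update_of_ne hi] at this
        simp_rw [e4]
        simp
    · exact (Finset.measurable_sum _ (fun i _ => hm i j)).indicator hSm
  refine (Finset.sum_le_sum fun j _ => e2 j).trans (le_of_eq ?_)
  rw [Finset.sum_const, Finset.card_univ, Fintype.card_fin, nsmul_eq_mul]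

end Vale.Agent.P065.R2.H841.Sm
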