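import Vale.Agent.P065.R2.H841.Sm.Fub
import Vale.Agent.P065.UB.Defs

/-!
# P065: smoothed point sets are in general position almost surely (helper841)
-/

set_option autoImplicit false

namespace Vale.Agent.P065.R2.H841.Sm

open Finset MeasureTheory Vale.Agent.P065
open scoped ENNReal

/-- lines are null sets -/
theorem line_null {α β : ℝ} (c : ℝ) (h : α ≠ 0 ∨ β ≠ 0) :
    volume {y : ℝ × ℝ | α * y.1 + β * y.2 = c} = 0 := by
  have hm : MeasurableSet {y : ℝ × ℝ | α * y.1 + β * y.2 = c} :=
    measurableSet_eq_fun (by fun_prop) (by fun_prop)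
  rw [Measure.volume_eq_prod, Measure.measure_prod_null hm]
  by_cases hβ : β = 0
  · have hα : α ≠ 0 := by
      rcases h with h | h
      · exact h
      · exact absurd hβ h
    have h1 : ∀ᵐ x : ℝ, x ≠ c / α := by
      rw [ae_iff]
      simp
    filter_upwards [h1] with x hx
    have : Prod.mk x ⁻¹' {y : ℝ × ℝ | α * y.1 + β * y.2 = c} = ∅ := by
      ext y
      simp only [Set.mem_preimage, Set.mem_ofPred_eq, Set.mem_empty_iff_false, iff_false]
      intro hy
      apply hx
      rw [eq_div_iff hα]
      rw [hβ] at hy
      linarith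
    rw [this]
    simp
  · refine Filter.Eventually.of_forall fun x => ?_
    have : Prod.mk x ⁻¹' {y : ℝ × ℝ | α * y.1 + β * y.2 = c} ⊆ {(c - α * x) / β} := by
      intro y hy
      simp only [Set.mem_preimage, Set.mem_ofPred_eq] at hy
      rw [Set.mem_singleton_iff, eq_div_iff hβ]
      linarith
    exact measure_mono_null this (by simp)

/-- null sets by one coordinate -/
theorem pi_null {n : ℕ} (μ : Fin n → Measure (ℝ × ℝ)) [∀ i, IsProbabilityMeasure (μ i)]
    {S : Set (Fin n → ℝ × ℝ)} (hS : MeasurableSet S) (j : Fin n)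
    (h : ∀ x, μ j {y | Function.update x j y ∈ S} = 0) : Measure.pi μ S = 0 := by
  have h1 := lintegral_pi_le μ (S.indicator 1) (measurable_one.indicator hS) j 0 (by
    intro x
    have e : ∀ y, S.indicator (1 : (Fin n → ℝ × ℝ) → ℝ≥0∞) (Function.update x j y) =
        ({y | Function.update x j y ∈ S} : Set (ℝ × ℝ)).indicator 1 y := by
      intro y
      simp only [Set.indicator, Set.mem_ofPred_eq, Pi.one_apply]
    have hm : MeasurableSet {y | Function.update x j y ∈ S} := (measurable_update x) hS
    simp_rw [e]
    rw [lintegral_indicator_one hm, h x])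
  rw [lintegral_indicator_one hS] at h1
  exact le_antisymm h1 zero_le

open Classical in
/-- almost surely the points are distinct and in general position, with distinct abscissas -/
theorem ae_good {n : ℕ} (μ : Fin n → Measure (ℝ × ℝ)) [∀ i, IsProbabilityMeasure (μ i)]
    (h : ∀ i, μ i ≪ volume) :
    ∀ᵐ x ∂(Measure.pi μ), Function.Injective x ∧ UB.Good (univ.image x) := by
  have h1 : ∀ i j : Fin n, ∀ᵐ x ∂(Measure.pi μ), i ≠ j → (x i).1 ≠ (x j).1 := by
    intro i j
    by_cases hij : i = j
    · exact Filter.Eventually.of_forall fun x hne => absurd hij hne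
    rw [ae_iff]
    have hm : MeasurableSet {x : Fin n → ℝ × ℝ | (x i).1 = (x j).1} :=
      measurableSet_eq_fun (by fun_prop) (by fun_prop)
    refine measure_mono_null ?_ (pi_null μ hm j ?_)
    · intro x hx
      simp only [Set.mem_ofPred_eq] at hx ⊢
      push Not at hx
      exact hx.2
    · intro x
      refine measure_mono_null ?_ ((h j) (line_null (α := 1) (β := 0) (x i).1 (Or.inl one_ne_zero)))
      intro y hy
      simp only [Set.mem_ofPred_eq] at hy ⊢
      rw [Function.update_of_ne hij, Function.update_self] at hy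
      linarith
  have h2 : ∀ i j l : Fin n, ∀ᵐ x ∂(Measure.pi μ), i ≠ l → j ≠ l → (x i).1 ≠ (x j).1 →
      orient (x i) (x j) (x l) ≠ 0 := by
    intro i j l
    by_cases hil : i = l
    · exact Filter.Eventually.of_forall fun x hne => absurd hil hne
    by_cases hjl : j = l
    · exact Filter.Eventually.of_forall fun x _ hne => absurd hjl hne
    rw [ae_iff]
    have hm : MeasurableSet {x : Fin n → ℝ × ℝ | (x i).1 ≠ (x j).1 ∧
        orient (x i) (x j) (x l) = 0} := by
      apply MeasurableSet.inter
      · exact (measurableSet_eq_fun (by fun_prop) (by fun_prop)).compl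
      · unfold orient
        exact measurableSet_eq_fun (by fun_prop) (by fun_prop)
    refine measure_mono_null ?_ (pi_null μ hm l ?_)
    · intro x hx
      simp only [Set.mem_ofPred_eq] at hx ⊢
      push Not at hx
      exact ⟨hx.2.2.1, hx.2.2.2⟩
    · intro x
      by_cases hx : (x i).1 = (x j).1
      · have : {y | Function.update x l y ∈ {x : Fin n → ℝ × ℝ | (x i).1 ≠ (x j).1 ∧
            orient (x i) (x j) (x l) = 0}} = ∅ := by
          ext y
          simp only [Set.mem_ofPred_eq, Set.mem_empty_iff_false, iff_false]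
          intro hy
          rw [Function.update_of_ne hil, Function.update_of_ne hjl] at hy
          exact hy.1 hx
        rw [this]
        simp
      · refine measure_mono_null ?_ ((h l) (line_null (α := -((x j).2 - (x i).2))
          (β := (x j).1 - (x i).1) (((x j).1 - (x i).1) * (x i).2 - ((x j).2 - (x i).2) * (x i).1)
          (Or.inr (sub_ne_zero.2 (Ne.symm hx)))))
        intro y hy
        simp only [Set.mem_ofPred_eq] at hy ⊢
        rw [Function.update_of_ne hil, Function.update_of_ne hjl, Function.update_self] at hy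
        have hy2 := hy.2
        unfold orient at hy2
        linarith
  filter_upwards [ae_all_iff.2 fun i => ae_all_iff.2 fun j => h1 i j,
    ae_all_iff.2 fun i => ae_all_iff.2 fun j => ae_all_iff.2 fun l => h2 i j l] with x hx1 hx2
  have hinj : Function.Injective x := by
    intro i j hij
    by_contra hne
    exact hx1 i j hne (by rw [hij])
  refine ⟨hinj, ?_, ?_⟩
  · intro p hp q hq hpq
    obtain ⟨i, _, rfl⟩ := mem_image.1 hp
    obtain ⟨j, _, rfl⟩ := mem_image.1 hq
    by_contra hne
    exact hx1 i j (fun h => hne (by rw [h])) hpq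
  · intro m p hp q hq r hr hpq hpr hqr e1 e2
    obtain ⟨i, _, rfl⟩ := mem_image.1 hp
    obtain ⟨j, _, rfl⟩ := mem_image.1 hq
    obtain ⟨l, _, rfl⟩ := mem_image.1 hr
    have n1 : i ≠ l := fun h => hpr (by rw [h])
    have n2 : j ≠ l := fun h => hqr (by rw [h])
    have n3 : i ≠ j := fun h => hpq (by rw [h])
    apply hx2 i j l n1 n2 (hx1 i j n3)
    unfold UB.ht at e1 e2
    unfold orient
    have f1 : (x j).2 - (x i).2 = m * ((x j).1 - (x i).1) := by linarith
    have f2 : (x l).2 - (x i).2 = m * ((x l).1 - (x i).1) := by linarith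
    rw [f1, f2]
    ring

end Vale.Agent.P065.R2.H841.Sm
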