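import Vale.Agent.P065.R2.H841.Sm.Fub
import Vale.Agent.P065.R2.H841.Sm.Count
import Vale.Agent.P065.R2.H841.Sm.Null

/-!
# P065: smoothed point sets, main theorem (helper841)
-/

set_option autoImplicit false

namespace Vale.Agent.P065.R2.H841.Sm

open Finset MeasureTheory Vale.Agent.P065
open scoped ENNReal

theorem dist_le {ρ : ℝ} (hρ : 0 ≤ ρ) (hρ1 : ρ ≤ 1) {a b y z : ℝ × ℝ} (ha : a.1 ^ 2 + a.2 ^ 2 ≤ 1)
    (hb : b.1 ^ 2 + b.2 ^ 2 ≤ 1) (hy : y ∈ disc a ρ) (hz : z ∈ disc b ρ) :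
    (z.1 - y.1) ^ 2 + (z.2 - y.2) ^ 2 ≤ 4 ^ 2 := by
  unfold disc at hy hz
  rw [Set.mem_ofPred_eq] at hy hz
  have h1 : ρ ^ 2 ≤ 1 := by nlinarith
  have key : ∀ p q r s : ℝ, (p + q + r + s) ^ 2 ≤ 4 * (p ^ 2 + q ^ 2 + r ^ 2 + s ^ 2) := by
    intro p q r s
    nlinarith [sq_nonneg (p - q), sq_nonneg (p - r), sq_nonneg (p - s), sq_nonneg (q - r),
      sq_nonneg (q - s), sq_nonneg (r - s)]
  have k1 := key (z.1 - b.1) b.1 (-a.1) (-(y.1 - a.1))
  have k2 := key (z.2 - b.2) b.2 (-a.2) (-(y.2 - a.2))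
  have e1 : z.1 - b.1 + b.1 + -a.1 + -(y.1 - a.1) = z.1 - y.1 := by ring
  have e2 : z.2 - b.2 + b.2 + -a.2 + -(y.2 - a.2) = z.2 - y.2 := by ring
  rw [e1] at k1
  rw [e2] at k2
  nlinarith

theorem ac_of_le {μ : Measure (ℝ × ℝ)} {c : ℝ≥0∞} (h : μ ≤ c • volume) : μ ≪ volume := by
  intro s hs
  have h1 : μ s ≤ (c • (volume : Measure (ℝ × ℝ))) s := h s
  rw [Measure.smul_apply, hs, smul_zero] at h1
  exact le_antisymm h1 zero_le

open Classical in
/-- the three conclusions, for laws with density at most `L` supported in discs of radius `ρ` -/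
theorem main {n : ℕ} (μ : Fin n → Measure (ℝ × ℝ)) [∀ i, IsProbabilityMeasure (μ i)]
    (a : Fin n → ℝ × ℝ) (L ρ : ℝ) (hL : 0 ≤ L) (hρ : 0 ≤ ρ) (hρ1 : ρ ≤ 1)
    (ha : ∀ i, (a i).1 ^ 2 + (a i).2 ^ 2 ≤ 1) (hμ : ∀ i, μ i ≤ ENNReal.ofReal L • volume)
    (hsupp : ∀ i, μ i (disc (a i) ρ)ᶜ = 0) :
    (∀ᵐ x ∂(Measure.pi μ), Function.Injective x ∧ GenPos (univ.image x)) ∧
    ∫⁻ x, (halvingNumber (univ.image x) : ℝ≥0∞) ∂(Measure.pi μ) ≤
      ENNReal.ofReal (8 * Real.pi * ρ * L * n) ∧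
    ∀ k : ℕ, 1 ≤ k → k + 1 ≤ n → ∫⁻ x, (kSetNumber (univ.image x) k : ℝ≥0∞) ∂(Measure.pi μ) ≤
      ENNReal.ofReal (16 * Real.pi * ρ * L * n + 2) := by
  have hg := ae_good μ (fun i => ac_of_le (hμ i))
  have hpi := Real.pi_pos
  have hE : ∀ k, ∫⁻ x, (#{p : Fin n × Fin n | Dir x k p.1 p.2} : ℝ≥0∞) ∂(Measure.pi μ) ≤
      ENNReal.ofReal (16 * Real.pi * ρ * L * n) := by
    intro k
    refine (expect_dir μ L ρ 4 hL hρ (by norm_num) a hμ hsupp
      (fun i j y hy z hz => dist_le hρ hρ1 (ha i) (ha j) hy hz) k).trans (le_of_eq ?_)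
    rw [← ENNReal.ofReal_natCast, ← ENNReal.ofReal_mul (by positivity)]
    congr 1
    ring
  refine ⟨?_, ?_, ?_⟩
  · filter_upwards [hg] with x hx
    exact ⟨hx.1, genPos_of_good hx.2⟩
  · have h1 : 2 * ∫⁻ x, (halvingNumber (univ.image x) : ℝ≥0∞) ∂(Measure.pi μ) ≤
        ENNReal.ofReal (16 * Real.pi * ρ * L * n) := by
      rw [← lintegral_const_mul' _ _ (by simp)]
      refine le_trans (lintegral_mono_ae ?_) (hE ((n - 2) / 2))
      filter_upwards [hg] with x hx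
      exact_mod_cast two_halving_le x hx.1
    have h2 : ENNReal.ofReal (16 * Real.pi * ρ * L * n) =
        2 * ENNReal.ofReal (8 * Real.pi * ρ * L * n) := by
      rw [← ENNReal.ofReal_ofNat, ← ENNReal.ofReal_mul (by norm_num)]
      congr 1
      ring
    rw [h2] at h1
    exact (ENNReal.mul_le_mul_iff_right (by simp) (by simp)).1 h1
  · intro k hk hkn
    have h1 : ∫⁻ x, (kSetNumber (univ.image x) k : ℝ≥0∞) ∂(Measure.pi μ) ≤
        ∫⁻ x, ((#{p : Fin n × Fin n | Dir x (k - 1) p.1 p.2} : ℝ≥0∞) + 2) ∂(Measure.pi μ) := by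
      apply lintegral_mono_ae
      filter_upwards [hg] with x hx
      exact_mod_cast kSet_le x hx.1 hx.2 hk hkn
    rw [lintegral_add_right _ measurable_const, lintegral_const, measure_univ, mul_one] at h1
    refine h1.trans ((add_le_add_left (hE (k - 1)) 2).trans (le_of_eq ?_))
    rw [← ENNReal.ofReal_ofNat, ← ENNReal.ofReal_add (by positivity) (by norm_num)]

/-- area of the disc -/
theorem volume_disc (a : ℝ × ℝ) {σ : ℝ} (hσ : 0 ≤ σ) :
    volume (disc a σ) = ENNReal.ofReal (Real.pi * σ ^ 2) := by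
  have h1 : Complex.measurableEquivRealProd ⁻¹' (disc a σ) =
      Metric.closedBall (⟨a.1, a.2⟩ : ℂ) σ := by
    ext z
    rw [Metric.mem_closedBall, Complex.dist_eq, Set.mem_preimage, disc, Set.mem_ofPred_eq,
      Complex.measurableEquivRealProd_apply, Complex.norm_def, Real.sqrt_le_left hσ,
      Complex.normSq_apply]
    simp only [Complex.sub_re, Complex.sub_im]
    constructor <;> intro h <;> nlinarith
  have hm : MeasurableSet (disc a σ) := by
    unfold disc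
    exact measurableSet_le (by fun_prop) (by fun_prop)
  have hpi : (NNReal.pi : ℝ≥0∞) = ENNReal.ofReal Real.pi := by
    rw [← NNReal.coe_real_pi, ENNReal.ofReal_coe_nnreal]
  rw [← Complex.volume_preserving_equiv_real_prod.measure_preimage hm.nullMeasurableSet, h1,
    Complex.volume_closedBall, ← ENNReal.ofReal_pow hσ, hpi, ENNReal.ofReal_mul Real.pi_pos.le]
  exact mul_comm _ _

/-- the uniform law on the disc -/
noncomputable def unif (a : ℝ × ℝ) (σ : ℝ) : Measure (ℝ × ℝ) :=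
  (volume (disc a σ))⁻¹ • volume.restrict (disc a σ)

theorem unif_prob (a : ℝ × ℝ) {σ : ℝ} (hσ : 0 < σ) : IsProbabilityMeasure (unif a σ) := by
  constructor
  have hpos : 0 < Real.pi * σ ^ 2 := by have := Real.pi_pos; positivity
  unfold unif
  rw [Measure.smul_apply, Measure.restrict_apply MeasurableSet.univ, Set.univ_inter,
    volume_disc a hσ.le, smul_eq_mul]
  exact ENNReal.inv_mul_cancel (by simpa using hpos) ENNReal.ofReal_ne_top

theorem unif_le (a : ℝ × ℝ) {σ : ℝ} (hσ : 0 < σ) :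
    unif a σ ≤ ENNReal.ofReal (1 / (Real.pi * σ ^ 2)) • volume := by
  have hpos : 0 < Real.pi * σ ^ 2 := by have := Real.pi_pos; positivity
  unfold unif
  rw [volume_disc a hσ.le, ← ENNReal.ofReal_inv_of_pos hpos, ← one_div]
  intro s
  rw [Measure.smul_apply, Measure.smul_apply, smul_eq_mul, smul_eq_mul]
  exact mul_le_mul_right (Measure.restrict_apply_le _ _) _

theorem unif_compl (a : ℝ × ℝ) (σ : ℝ) : unif a σ (disc a σ)ᶜ = 0 := by
  unfold unif
  rw [Measure.smul_apply, Measure.restrict_apply (measurableSet_disc a σ).compl]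
  simp

open Classical in
/-- uniform perturbations -/
theorem main_unif {n : ℕ} (a : Fin n → ℝ × ℝ) (σ : ℝ) (hσ : 0 < σ) (hσ1 : σ ≤ 1)
    (ha : ∀ i, (a i).1 ^ 2 + (a i).2 ^ 2 ≤ 1) :
    (∀ᵐ x ∂(Measure.pi fun i => unif (a i) σ), Function.Injective x ∧ GenPos (univ.image x)) ∧
    ∫⁻ x, (halvingNumber (univ.image x) : ℝ≥0∞) ∂(Measure.pi fun i => unif (a i) σ) ≤
      ENNReal.ofReal (8 * n / σ) ∧
    ∀ k : ℕ, 1 ≤ k → k + 1 ≤ n →
      ∫⁻ x, (kSetNumber (univ.image x) k : ℝ≥0∞) ∂(Measure.pi fun i => unif (a i) σ) ≤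
      ENNReal.ofReal (16 * n / σ + 2) := by
  have : ∀ i, IsProbabilityMeasure (unif (a i) σ) := fun i => unif_prob (a i) hσ
  have hpi := Real.pi_pos
  obtain ⟨h1, h2, h3⟩ := main (fun i => unif (a i) σ) a (1 / (Real.pi * σ ^ 2)) σ (by positivity)
    hσ.le hσ1 ha (fun i => unif_le (a i) hσ) (fun i => unif_compl (a i) σ)
  refine ⟨h1, ?_, fun k hk hkn => ?_⟩
  · have e : 8 * Real.pi * σ * (1 / (Real.pi * σ ^ 2)) * n = 8 * n / σ := by
      field_simp
    rwa [e] at h2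
  · have e : 16 * Real.pi * σ * (1 / (Real.pi * σ ^ 2)) * n = 16 * n / σ := by
      field_simp
    have := h3 k hk hkn
    rwa [e] at this

open Classical in
/-- every set of `n` points of the unit disc is moved by at most `σ` to a set in general position
with at most `8 n / σ` halving lines -/
theorem exists_moved {n : ℕ} (a : Fin n → ℝ × ℝ) (σ : ℝ) (hσ : 0 < σ) (hσ1 : σ ≤ 1)
    (ha : ∀ i, (a i).1 ^ 2 + (a i).2 ^ 2 ≤ 1) :
    ∃ x : Fin n → ℝ × ℝ, Function.Injective x ∧ (∀ i, x i ∈ disc (a i) σ) ∧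
      GenPos (univ.image x) ∧ (halvingNumber (univ.image x) : ℝ) ≤ 8 * n / σ := by
  have : ∀ i, IsProbabilityMeasure (unif (a i) σ) := fun i => unif_prob (a i) hσ
  have hpi := Real.pi_pos
  have hg := ae_good (fun i => unif (a i) σ) (fun i => ac_of_le (unif_le (a i) hσ))
  have hE := expect_dir (fun i => unif (a i) σ) (1 / (Real.pi * σ ^ 2)) σ 4 (by positivity)
    hσ.le (by norm_num) a (fun i => unif_le (a i) hσ) (fun i => unif_compl (a i) σ)
    (fun i j y hy z hz => dist_le hσ.le hσ1 (ha i) (ha j) hy hz) ((n - 2) / 2)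
  have hS : ∀ᵐ x ∂(Measure.pi fun i => unif (a i) σ), ∀ i, x i ∈ disc (a i) σ := by
    rw [ae_all_iff]
    intro i
    have h1 : ∀ᵐ y ∂(unif (a i) σ), y ∈ disc (a i) σ := unif_compl (a i) σ
    exact (measurePreserving_eval (fun i => unif (a i) σ) i).quasiMeasurePreserving.ae h1
  have hboth := hg.and hS
  have hmeas : Measurable (fun x : Fin n → ℝ × ℝ =>
      (#{p : Fin n × Fin n | Dir x ((n - 2) / 2) p.1 p.2} : ℝ≥0∞)) := by
    have e1 : (fun x : Fin n → ℝ × ℝ =>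
        (#{p : Fin n × Fin n | Dir x ((n - 2) / 2) p.1 p.2} : ℝ≥0∞)) =
        fun x => ∑ p : Fin n × Fin n,
          Set.indicator {x : Fin n → ℝ × ℝ | Dir x ((n - 2) / 2) p.1 p.2} 1 x := by
      funext x
      rw [Finset.card_filter, Nat.cast_sum]
      refine Finset.sum_congr rfl fun p _ => ?_
      simp only [Set.indicator, Set.mem_ofPred_eq, Pi.one_apply]
      split_ifs <;> simp
    rw [e1]
    exact Finset.measurable_sum _ (fun p _ =>
      measurable_one.indicator (measurableSet_dir ((n - 2) / 2) p.1 p.2))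
  obtain ⟨x, hx, hle⟩ := exists_notMem_null_le_lintegral hmeas.aemeasurable hboth
  rw [Set.mem_compl_iff, not_not] at hx
  obtain ⟨⟨hinj, hgood⟩, hmem⟩ := hx
  refine ⟨x, hinj, hmem, genPos_of_good hgood, ?_⟩
  have h1 := two_halving_le x hinj
  have h2 : (#{p : Fin n × Fin n | Dir x ((n - 2) / 2) p.1 p.2} : ℝ≥0∞) ≤
      ENNReal.ofReal (16 * n / σ) := by
    refine hle.trans (hE.trans (le_of_eq ?_))
    rw [← ENNReal.ofReal_natCast, ← ENNReal.ofReal_mul (by positivity)]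
    congr 1
    field_simp
    ring
  have h3 : ((#{p : Fin n × Fin n | Dir x ((n - 2) / 2) p.1 p.2} : ℕ) : ℝ) ≤ 16 * n / σ := by
    rw [← ENNReal.ofReal_natCast] at h2
    exact (ENNReal.ofReal_le_ofReal_iff (by positivity)).1 h2
  have h4 : (2 * (halvingNumber (univ.image x) : ℝ)) ≤ 16 * n / σ := by
    refine le_trans ?_ h3
    exact_mod_cast h1
  have h5 : (16 : ℝ) * n / σ = 2 * (8 * n / σ) := by ring
  rw [h5] at h4
  linarith

end Vale.Agent.P065.R2.H841.Sm
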