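import Vale.Agent.P065.R2.H841.Sm.Core

/-!
# P065: the number of halving lines is a measurable function of the points (helper841)
-/

set_option autoImplicit false

namespace Vale.Agent.P065.R2.H841.Sm

open Finset MeasureTheory Vale.Agent.P065
open scoped ENNReal

open Classical in
/-- the index pair spans a halving line -/
def HalfPair {n : ℕ} (x : Fin n → ℝ × ℝ) (i j : Fin n) : Prop :=
  i ≠ j ∧ 2 * #{l | 0 < orient (x i) (x j) (x l)} + 2 = n ∧
    2 * #{l | orient (x i) (x j) (x l) < 0} + 2 = n

theorem measurableSet_halfPair {n : ℕ} (i j : Fin n) :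
    MeasurableSet {x : Fin n → ℝ × ℝ | HalfPair x i j} := by
  classical
  have hm : ∀ l : Fin n, Measurable fun x : Fin n → ℝ × ℝ => orient (x i) (x j) (x l) := fun l =>
    measurable_orient (measurable_pi_apply i) (measurable_pi_apply j) (measurable_pi_apply l)
  have h1 : Measurable fun x : Fin n → ℝ × ℝ => #{l | 0 < orient (x i) (x j) (x l)} :=
    measurable_card fun l => measurableSet_lt measurable_const (hm l)
  have h2 : Measurable fun x : Fin n → ℝ × ℝ => #{l | orient (x i) (x j) (x l) < 0} :=
    measurable_card fun l => measurableSet_lt (hm l) measurable_const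
  have h3 : MeasurableSet {x : Fin n → ℝ × ℝ | 2 * #{l | 0 < orient (x i) (x j) (x l)} + 2 = n} :=
    ((h1.const_mul 2).add_const 2) (measurableSet_singleton _)
  have h4 : MeasurableSet {x : Fin n → ℝ × ℝ | 2 * #{l | orient (x i) (x j) (x l) < 0} + 2 = n} :=
    ((h2.const_mul 2).add_const 2) (measurableSet_singleton _)
  exact (MeasurableSet.const (i ≠ j)).inter (h3.inter h4)

open Classical in
theorem halvingNumber_eq {n : ℕ} {x : Fin n → ℝ × ℝ} (hx : Function.Injective x) :
    halvingNumber (univ.image x) =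
      #{s ∈ powersetCard 2 (univ : Finset (Fin n)) | ∃ i j, s = {i, j} ∧ HalfPair x i j} := by
  have hcard : #(univ.image x) = n := by
    rw [card_image_of_injective _ hx, card_univ, Fintype.card_fin]
  have hpos : ∀ i j, #{c ∈ univ.image x | 0 < orient (x i) (x j) c} =
      #{l | 0 < orient (x i) (x j) (x l)} := by
    intro i j
    rw [Finset.filter_image, card_image_of_injective _ hx]
  have hneg : ∀ i j, #{c ∈ univ.image x | orient (x i) (x j) c < 0} =
      #{l | orient (x i) (x j) (x l) < 0} := by
    intro i j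
    rw [Finset.filter_image, card_image_of_injective _ hx]
  have hiff : ∀ i j, IsHalving (univ.image x) (x i) (x j) ↔ HalfPair x i j := by
    intro i j
    unfold IsHalving HalfPair
    rw [hcard]
    have e1 := hpos i j
    have e2 := hneg i j
    constructor
    · rintro ⟨h1, h2, h3⟩
      refine ⟨fun h => h1 (by rw [h]), ?_, ?_⟩
      · rw [← e1]
        convert h2
      · rw [← e2]
        convert h3
    · rintro ⟨h1, h2, h3⟩
      refine ⟨fun h => h1 (hx h), ?_, ?_⟩
      · rw [← e1] at h2
        convert h2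
      · rw [← e2] at h3
        convert h3
  unfold halvingNumber
  symm
  apply Finset.card_bij (fun S _ => S.image x)
  · intro S hS
    obtain ⟨h1, i, j, rfl, h2⟩ := mem_filter.1 hS
    obtain ⟨_, h5⟩ := mem_powersetCard.1 h1
    refine mem_filter.2 ⟨mem_powersetCard.2 ⟨image_subset_image (subset_univ _), ?_⟩, x i, x j,
      ?_, (hiff i j).2 h2⟩
    · rw [card_image_of_injective _ hx, h5]
    · rw [image_insert, image_singleton]
  · intro S _ S' _ h
    exact image_injective hx h
  · intro T hT
    obtain ⟨h1, a, b, rfl, h2⟩ := mem_filter.1 hT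
    obtain ⟨h3, h4⟩ := mem_powersetCard.1 h1
    obtain ⟨i, _, rfl⟩ := mem_image.1 (h3 (mem_insert_self a {b}))
    obtain ⟨j, _, rfl⟩ := mem_image.1 (h3 (mem_insert_of_mem (mem_singleton_self b)))
    refine ⟨{i, j}, ?_, by rw [image_insert, image_singleton]⟩
    have hne : i ≠ j := fun h => h2.1 (by rw [h])
    exact mem_filter.2 ⟨mem_powersetCard.2 ⟨subset_univ _, card_pair hne⟩, i, j, rfl,
      (hiff i j).1 h2⟩

open Classical in
theorem aemeasurable_halving {n : ℕ} (μ : Measure (Fin n → ℝ × ℝ))
    (h : ∀ᵐ x ∂μ, Function.Injective x) :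
    AEMeasurable (fun x : Fin n → ℝ × ℝ => (halvingNumber (univ.image x) : ℝ≥0∞)) μ := by
  refine ⟨fun x => ∑ s ∈ powersetCard 2 (univ : Finset (Fin n)),
    Set.indicator {x : Fin n → ℝ × ℝ | ∃ i j, s = {i, j} ∧ HalfPair x i j} 1 x, ?_, ?_⟩
  · refine Finset.measurable_sum _ fun s _ => measurable_one.indicator ?_
    have e : {x : Fin n → ℝ × ℝ | ∃ i j, s = {i, j} ∧ HalfPair x i j} =
        ⋃ i, ⋃ j, ⋃ (_ : s = {i, j}), {x : Fin n → ℝ × ℝ | HalfPair x i j} := by
      ext x
      simp only [Set.mem_ofPred_eq, Set.mem_iUnion, exists_prop]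
    rw [e]
    exact MeasurableSet.iUnion fun i => MeasurableSet.iUnion fun j => MeasurableSet.iUnion fun _ =>
      measurableSet_halfPair i j
  · filter_upwards [h] with x hx
    rw [halvingNumber_eq hx, Finset.card_filter, Nat.cast_sum]
    refine Finset.sum_congr rfl fun S _ => ?_
    simp only [Set.indicator, Set.mem_ofPred_eq, Pi.one_apply]
    split_ifs <;> simp

end Vale.Agent.P065.R2.H841.Sm
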