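import Vale.Agent.P065.R2.H841.Sm.Core

/-!
# P065: the number of `k`-sets is a measurable function of the points (helper841)
-/

set_option autoImplicit false

namespace Vale.Agent.P065.R2.H841.Sm

open Finset MeasureTheory Vale.Agent.P065
open scoped ENNReal

/-- the index set `S` is strictly separated by a line -/
def Sep {n : ℕ} (x : Fin n → ℝ × ℝ) (S : Finset (Fin n)) : Prop :=
  ∃ a b c : ℝ, (a ≠ 0 ∨ b ≠ 0) ∧ (∀ i ∈ S, a * (x i).1 + b * (x i).2 < c) ∧
    ∀ i, i ∉ S → c < a * (x i).1 + b * (x i).2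

theorem measurableSet_sep {n : ℕ} (S : Finset (Fin n)) :
    MeasurableSet {x : Fin n → ℝ × ℝ | Sep x S} := by
  apply IsOpen.measurableSet
  have e : {x : Fin n → ℝ × ℝ | Sep x S} = ⋃ (a : ℝ), ⋃ (b : ℝ), ⋃ (c : ℝ),
      ⋃ (_ : a ≠ 0 ∨ b ≠ 0), ((⋂ i ∈ S, {x : Fin n → ℝ × ℝ | a * (x i).1 + b * (x i).2 < c}) ∩
        ⋂ i ∈ (Sᶜ : Finset (Fin n)), {x : Fin n → ℝ × ℝ | c < a * (x i).1 + b * (x i).2}) := by
    ext x
    simp only [Sep, Set.mem_ofPred_eq, Set.mem_iUnion, Set.mem_inter_iff, Set.mem_iInter,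
      Finset.mem_compl, exists_prop]
  rw [e]
  refine isOpen_iUnion fun a => isOpen_iUnion fun b => isOpen_iUnion fun c =>
    isOpen_iUnion fun _ => IsOpen.inter ?_ ?_
  · exact isOpen_biInter_finset fun i _ => isOpen_lt (by fun_prop) (by fun_prop)
  · exact isOpen_biInter_finset fun i _ => isOpen_lt (by fun_prop) (by fun_prop)

open Classical in
theorem kSetNumber_eq {n : ℕ} {x : Fin n → ℝ × ℝ} (hx : Function.Injective x) (k : ℕ) :
    kSetNumber (univ.image x) k = #{S ∈ powersetCard k (univ : Finset (Fin n)) | Sep x S} := by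
  unfold kSetNumber
  symm
  apply Finset.card_bij (fun S _ => S.image x)
  · intro S hS
    obtain ⟨h1, a, b, c, h2, h3, h4⟩ := mem_filter.1 hS
    obtain ⟨_, h5⟩ := mem_powersetCard.1 h1
    have hsub : S.image x ⊆ univ.image x := image_subset_image (subset_univ _)
    refine mem_filter.2 ⟨mem_powerset.2 hsub, hsub, ?_, a, b, c, h2, ?_, ?_⟩
    · rw [card_image_of_injective _ hx, h5]
    · intro z hz
      obtain ⟨i, hi, rfl⟩ := mem_image.1 hz
      exact h3 i hi
    · intro z hz hz'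
      obtain ⟨i, _, rfl⟩ := mem_image.1 hz
      exact h4 i (fun hi => hz' (mem_image_of_mem _ hi))
  · intro S _ S' _ h
    exact image_injective hx h
  · intro T hT
    obtain ⟨h1, h2, h3, a, b, c, h4, h5, h6⟩ := mem_filter.1 hT
    have e : (univ.filter fun i => x i ∈ T).image x = T := by
      ext z
      simp only [mem_image, mem_filter, mem_univ, true_and]
      constructor
      · rintro ⟨i, hi, rfl⟩
        exact hi
      · intro hz
        obtain ⟨i, _, hi⟩ := mem_image.1 (h2 hz)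
        exact ⟨i, by rw [hi]; exact hz, hi⟩
    refine ⟨univ.filter fun i => x i ∈ T, ?_, e⟩
    refine mem_filter.2 ⟨mem_powersetCard.2 ⟨subset_univ _, ?_⟩, a, b, c, h4, ?_, ?_⟩
    · rw [← h3, ← e, card_image_of_injective _ hx, e]
    · intro i hi
      exact h5 _ (mem_filter.1 hi).2
    · intro i hi
      exact h6 _ (mem_image_of_mem _ (mem_univ i)) (fun h => hi (mem_filter.2 ⟨mem_univ _, h⟩))

open Classical in
theorem aemeasurable_kSet {n : ℕ} (μ : Measure (Fin n → ℝ × ℝ))
    (h : ∀ᵐ x ∂μ, Function.Injective x) (k : ℕ) :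
    AEMeasurable (fun x : Fin n → ℝ × ℝ => (kSetNumber (univ.image x) k : ℝ≥0∞)) μ := by
  refine ⟨fun x => ∑ S ∈ powersetCard k (univ : Finset (Fin n)),
    Set.indicator {x : Fin n → ℝ × ℝ | Sep x S} 1 x, ?_, ?_⟩
  · exact Finset.measurable_sum _ fun S _ => measurable_one.indicator (measurableSet_sep S)
  · filter_upwards [h] with x hx
    rw [kSetNumber_eq hx, Finset.card_filter, Nat.cast_sum]
    refine Finset.sum_congr rfl fun S _ => ?_
    simp only [Set.indicator, Set.mem_ofPred_eq, Pi.one_apply]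
    split_ifs <;> simp

end Vale.Agent.P065.R2.H841.Sm
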